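import Vale.Agent.H90.KTV.Triple
import Vale.Agent.H12.MixCore

/-!
Contingency tables with prescribed margins: the classes `Omega r c`, the fibre relations of
row pairs, row triples and `2 x 2` / `2 x 3` blocks, and the heat-bath kernels.
-/

namespace Vale.Agent.H88.CT

open Finset Vale.Agent.H90

variable {m n : ℕ}

/-- The class of `m x n` contingency tables (nonnegative integer matrices) with row sums `r`
and column sums `c`. -/
def Omega (r : Fin m → ℕ) (c : Fin n → ℕ) : Type :=
  {X : Fin m → Fin n → ℕ // (∀ i, ∑ j, X i j = r i) ∧ (∀ j, ∑ i, X i j = c j)}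

variable {r : Fin m → ℕ} {c : Fin n → ℕ}

theorem entry_le_col (X : Omega r c) (i : Fin m) (j : Fin n) : X.1 i j ≤ c j := by
  rw [← X.2.2 j]
  exact Finset.single_le_sum (f := fun i => X.1 i j) (fun _ _ => Nat.zero_le _) (Finset.mem_univ i)

theorem entry_le_row (X : Omega r c) (i : Fin m) (j : Fin n) : X.1 i j ≤ r i := by
  rw [← X.2.1 i]
  exact Finset.single_le_sum (f := fun j => X.1 i j) (fun _ _ => Nat.zero_le _) (Finset.mem_univ j)

instance instFiniteOmega (r : Fin m → ℕ) (c : Fin n → ℕ) : Finite (Omega r c) := by
  refine Finite.of_injective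
    (fun X : Omega r c => fun (i : Fin m) (j : Fin n) =>
      (⟨X.1 i j, Nat.lt_succ_of_le (entry_le_col X i j)⟩ : Fin (c j + 1))) ?_
  intro X Y h
  apply Subtype.ext
  funext i j
  have := congrFun (congrFun h i) j
  exact Fin.mk.inj_iff.1 this

noncomputable instance instFintypeOmega (r : Fin m → ℕ) (c : Fin n → ℕ) : Fintype (Omega r c) :=
  Fintype.ofFinite _

instance instDecEqOmega (r : Fin m → ℕ) (c : Fin n → ℕ) : DecidableEq (Omega r c) := by
  unfold Omega; infer_instance

/-- Fibre relation of the row pair `i, j`: the two tables agree outside rows `i, j`. -/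
def RowRel (i j : Fin m) (X Y : Omega r c) : Prop := ∀ k, k ≠ i → k ≠ j → X.1 k = Y.1 k

instance (i j : Fin m) : DecidableRel (RowRel (r := r) (c := c) i j) := fun X Y => by
  unfold RowRel; infer_instance

/-- Fibre relation of the row triple `i, j, k`: the two tables agree outside rows `i, j, k`. -/
def TriRel (i j k : Fin m) (X Y : Omega r c) : Prop :=
  ∀ l, l ≠ i → l ≠ j → l ≠ k → X.1 l = Y.1 l

instance (i j k : Fin m) : DecidableRel (TriRel (r := r) (c := c) i j k) := fun X Y => by
  unfold TriRel; infer_instance

/-- Fibre relation of the `2 x 2` block in rows `i, j` and columns `a, b`: the two tables agree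
outside the block. -/
def BlockRel (i j : Fin m) (a b : Fin n) (X Y : Omega r c) : Prop :=
  ∀ k l, ¬ ((k = i ∨ k = j) ∧ (l = a ∨ l = b)) → X.1 k l = Y.1 k l

instance (i j : Fin m) (a b : Fin n) : DecidableRel (BlockRel (r := r) (c := c) i j a b) :=
  fun X Y => by unfold BlockRel; infer_instance

/-- Fibre relation of the `2 x 3` block in rows `i, j` and columns `a, b, d`. -/
def Block3Rel (i j : Fin m) (a b d : Fin n) (X Y : Omega r c) : Prop :=
  ∀ k l, ¬ ((k = i ∨ k = j) ∧ (l = a ∨ l = b ∨ l = d)) → X.1 k l = Y.1 k l

instance (i j : Fin m) (a b d : Fin n) : DecidableRel (Block3Rel (r := r) (c := c) i j a b d) :=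
  fun X Y => by unfold Block3Rel; infer_instance

/-- Heat-bath kernel of a relation: from `X` move to a uniformly chosen `Y` with `rel X Y`. -/
noncomputable def hb (rel : Omega r c → Omega r c → Prop) [DecidableRel rel] :
    Matrix (Omega r c) (Omega r c) ℝ :=
  fun X Y => if rel X Y then 1 / ((univ.filter (fun Z => rel X Z)).card : ℝ) else 0

/-- The row-pair heat-bath chain: choose an ordered pair of distinct rows uniformly at random and
replace the two rows by a uniformly random pair of rows with the same column sums of the pair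
(and the same two row sums). -/
noncomputable def rowPairChain (r : Fin m → ℕ) (c : Fin n → ℕ) :
    Matrix (Omega r c) (Omega r c) ℝ :=
  (1 / ((m : ℝ) * (m - 1))) •
    ∑ i : Fin m, ∑ j : Fin m, if i ≠ j then hb (RowRel i j) else 0

/-- The `2 x 2` heat-bath chain: choose an ordered pair of distinct rows and an ordered pair of
distinct columns uniformly at random and replace the `2 x 2` subtable by a uniformly random
`2 x 2` table with the same row and column sums. -/
noncomputable def blockChain (r : Fin m → ℕ) (c : Fin n → ℕ) :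
    Matrix (Omega r c) (Omega r c) ℝ :=
  (1 / ((m : ℝ) * (m - 1) * ((n : ℝ) * (n - 1)))) •
    ∑ i : Fin m, ∑ j : Fin m, ∑ a : Fin n, ∑ b : Fin n,
      if i ≠ j ∧ a ≠ b then hb (BlockRel i j a b) else 0

/-- The three-row hypothesis in fibre form: inside every class and for every three rows, the
Dirichlet form of resampling the three rows together is at most the sum of the Dirichlet forms
of the three two-row resamplings. -/
def TripleHyp : Prop :=
  ∀ (m n : ℕ) (r : Fin m → ℕ) (c : Fin n → ℕ) (i j k : Fin m), i ≠ j → j ≠ k → i ≠ k →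
    ∀ f : Omega r c → ℝ,
      ∑ X, (f X - avgRel (TriRel i j k) f X) ^ 2
        ≤ ∑ X, (f X - avgRel (RowRel i j) f X) ^ 2
          + ∑ X, (f X - avgRel (RowRel j k) f X) ^ 2
          + ∑ X, (f X - avgRel (RowRel k i) f X) ^ 2

/-- The three-row spectral-gap hypothesis: on every class of `3 x n` contingency tables, the
variance of a function is at most the sum over the three rows of its mean conditional variance
given that row (sums over the class, not normalised). -/
def ThreeRowGap : Prop :=
  ∀ (n : ℕ) (r : Fin 3 → ℕ) (c : Fin n → ℕ) (f : Omega r c → ℝ),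
    ∑ X, (f X - (∑ Y, f Y) / (Fintype.card (Omega r c) : ℝ)) ^ 2
      ≤ ∑ k : Fin 3, ∑ X, (f X - avgRel (fun X Y : Omega r c => X.1 k = Y.1 k) f X) ^ 2

end Vale.Agent.H88.CT
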