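import Vale.Agent.H90.KTV.Triple

/-!
Abstract lemmas on averaging operators of equivalence relations on a finite set:
a three-relation Poincare inequality is equivalent to a spectral condition, and it
implies the cyclic inequality used by the triple trick.
-/

namespace Vale.Agent.H88.CT

open Finset Vale.Agent.H90

set_option linter.unusedSectionVars false

section

variable {Ω : Type*} [Fintype Ω] [DecidableEq Ω]

theorem sum_sq_eq_dot (rel : Ω → Ω → Prop) [DecidableRel rel] (f : Ω → ℝ) :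
    ∑ X, (f X - avgRel rel f X) ^ 2 = dot (Qrel rel f) (Qrel rel f) := by
  unfold dot Qrel
  refine Finset.sum_congr rfl (fun X _ => ?_)
  simp only [Pi.sub_apply]
  ring

/-- A coarser average absorbs a finer one. -/
theorem avgRel_avgRel_of_le {R T : Ω → Ω → Prop} [DecidableRel R] [DecidableRel T]
    (hR : Equivalence R) (hT : Equivalence T) (hle : ∀ x y, R x y → T x y) (f : Ω → ℝ) :
    avgRel T (avgRel R f) = avgRel T f := by
  apply eq_of_dot_eq
  intro g
  have hinv : avgRel R (avgRel T g) = avgRel T g :=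
    avgRel_eq_self hR _ (fun x y hxy => avgRel_of_rel hT g (hle x y hxy))
  calc dot g (avgRel T (avgRel R f)) = dot (avgRel T g) (avgRel R f) := by rw [avgRel_dot hT]
    _ = dot (avgRel R (avgRel T g)) f := by rw [avgRel_dot hR]
    _ = dot (avgRel T g) f := by rw [hinv]
    _ = dot g (avgRel T f) := by rw [avgRel_dot hT]

theorem avgRel_Qrel_of_le {R T : Ω → Ω → Prop} [DecidableRel R] [DecidableRel T]
    (hR : Equivalence R) (hT : Equivalence T) (hle : ∀ x y, R x y → T x y) (f : Ω → ℝ) :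
    avgRel T (Qrel R f) = 0 := by
  unfold Qrel
  rw [avgRel_sub, avgRel_avgRel_of_le hR hT hle, sub_self]

theorem Qrel_avgRel_of_le {R T : Ω → Ω → Prop} [DecidableRel R] [DecidableRel T]
    (hR : Equivalence R) (hT : Equivalence T) (hle : ∀ x y, R x y → T x y) (f : Ω → ℝ) :
    Qrel R (avgRel T f) = 0 :=
  Qrel_eq_zero_of_inv hR _ (fun x y hxy => avgRel_of_rel hT f (hle x y hxy))

section K3

variable (R1 R2 R3 : Ω → Ω → Prop) [DecidableRel R1] [DecidableRel R2] [DecidableRel R3]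

/-- The sum of three complementary projections. -/
noncomputable def K3 (f : Ω → ℝ) : Ω → ℝ := Qrel R1 f + Qrel R2 f + Qrel R3 f

theorem K3_add (f g : Ω → ℝ) : K3 R1 R2 R3 (f + g) = K3 R1 R2 R3 f + K3 R1 R2 R3 g := by
  unfold K3; rw [Qrel_add, Qrel_add, Qrel_add]; abel

theorem K3_smul (a : ℝ) (f : Ω → ℝ) : K3 R1 R2 R3 (a • f) = a • K3 R1 R2 R3 f := by
  unfold K3; rw [Qrel_smul, Qrel_smul, Qrel_smul, smul_add, smul_add]

variable {R1 R2 R3}

theorem K3_dot (h1 : Equivalence R1) (h2 : Equivalence R2) (h3 : Equivalence R3)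
    (f g : Ω → ℝ) : dot f (K3 R1 R2 R3 g) = dot (K3 R1 R2 R3 f) g := by
  unfold K3
  rw [dot_add_right, dot_add_right, dot_add_left, dot_add_left, Qrel_dot h1, Qrel_dot h2,
    Qrel_dot h3]

theorem dot_K3_self (h1 : Equivalence R1) (h2 : Equivalence R2) (h3 : Equivalence R3)
    (f : Ω → ℝ) : dot f (K3 R1 R2 R3 f) = dot (Qrel R1 f) (Qrel R1 f)
      + dot (Qrel R2 f) (Qrel R2 f) + dot (Qrel R3 f) (Qrel R3 f) := by
  unfold K3
  rw [dot_add_right, dot_add_right, dot_Qrel_self h1, dot_Qrel_self h2, dot_Qrel_self h3]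

theorem dot_K3_K3 (f : Ω → ℝ) :
    dot (K3 R1 R2 R3 f) (K3 R1 R2 R3 f) = dot (Qrel R1 f) (Qrel R1 f)
      + dot (Qrel R2 f) (Qrel R2 f) + dot (Qrel R3 f) (Qrel R3 f)
      + 2 * (dot (Qrel R1 f) (Qrel R2 f) + dot (Qrel R2 f) (Qrel R3 f)
        + dot (Qrel R3 f) (Qrel R1 f)) := by
  unfold K3
  simp only [dot_add_left, dot_add_right]
  rw [dot_comm (Qrel R2 f) (Qrel R1 f), dot_comm (Qrel R3 f) (Qrel R2 f),
    dot_comm (Qrel R1 f) (Qrel R3 f)]
  ring

/-- A Poincare inequality for three relations inside a coarser one implies the spectral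
condition: every nonzero eigenvalue of the sum of the three complementary projections is at
least one. -/
theorem eigen_of_poincare {T : Ω → Ω → Prop} [DecidableRel T]
    (h1 : Equivalence R1) (h2 : Equivalence R2) (h3 : Equivalence R3) (hT : Equivalence T)
    (hle1 : ∀ x y, R1 x y → T x y) (hle2 : ∀ x y, R2 x y → T x y)
    (hle3 : ∀ x y, R3 x y → T x y)
    (hP : ∀ g : Ω → ℝ, dot (Qrel T g) (Qrel T g) ≤ dot (Qrel R1 g) (Qrel R1 g)
      + dot (Qrel R2 g) (Qrel R2 g) + dot (Qrel R3 g) (Qrel R3 g))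
    (μ : ℝ) (g : Ω → ℝ) (hg : g ≠ 0) (hμ : K3 R1 R2 R3 g = μ • g) : μ = 0 ∨ 1 ≤ μ := by
  by_cases h0 : μ = 0
  · exact Or.inl h0
  right
  have hav : avgRel T (K3 R1 R2 R3 g) = 0 := by
    unfold K3
    rw [avgRel_add, avgRel_add, avgRel_Qrel_of_le h1 hT hle1, avgRel_Qrel_of_le h2 hT hle2,
      avgRel_Qrel_of_le h3 hT hle3]
    simp
  rw [hμ, avgRel_smul] at hav
  have hav0 : avgRel T g = 0 := by
    funext x
    have := congrFun hav x
    simp only [Pi.smul_apply, smul_eq_mul, Pi.zero_apply] at this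
    rcases mul_eq_zero.1 this with h | h
    · exact absurd h h0
    · exact h
  have hQ : Qrel T g = g := by
    unfold Qrel; rw [hav0, sub_zero]
  have hp := hP g
  rw [hQ, ← dot_K3_self h1 h2 h3, hμ, dot_smul_right] at hp
  have hpos : 0 < dot g g := by
    rcases (dot_self_nonneg g).lt_or_eq with h | h
    · exact h
    · exact absurd (dot_self_eq_zero h.symm) hg
  by_contra hcon
  have : μ * dot g g < 1 * dot g g := mul_lt_mul_of_pos_right (lt_of_not_ge hcon) hpos
  linarith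

/-- The spectral condition implies the cyclic inequality of the triple trick. -/
theorem cyclic_of_eigen (h1 : Equivalence R1) (h2 : Equivalence R2) (h3 : Equivalence R3)
    (heig : ∀ (μ : ℝ) (g : Ω → ℝ), g ≠ 0 → K3 R1 R2 R3 g = μ • g → μ = 0 ∨ 1 ≤ μ)
    (f : Ω → ℝ) :
    0 ≤ dot (Qrel R1 f) (Qrel R2 f) + dot (Qrel R2 f) (Qrel R3 f)
      + dot (Qrel R3 f) (Qrel R1 f) := by
  have hsq := Pending.spec_sq (K3 R1 R2 R3) (K3_add R1 R2 R3) (K3_smul R1 R2 R3)
    (K3_dot h1 h2 h3) 1 (by norm_num) heig f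
  rw [dot_K3_self h1 h2 h3, dot_K3_K3] at hsq
  linarith

/-- A Poincare inequality for three relations inside a coarser one implies the cyclic
inequality of the triple trick. -/
theorem cyclic_of_poincare {T : Ω → Ω → Prop} [DecidableRel T]
    (h1 : Equivalence R1) (h2 : Equivalence R2) (h3 : Equivalence R3) (hT : Equivalence T)
    (hle1 : ∀ x y, R1 x y → T x y) (hle2 : ∀ x y, R2 x y → T x y)
    (hle3 : ∀ x y, R3 x y → T x y)
    (hP : ∀ g : Ω → ℝ, dot (Qrel T g) (Qrel T g) ≤ dot (Qrel R1 g) (Qrel R1 g)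
      + dot (Qrel R2 g) (Qrel R2 g) + dot (Qrel R3 g) (Qrel R3 g))
    (f : Ω → ℝ) :
    0 ≤ dot (Qrel R1 f) (Qrel R2 f) + dot (Qrel R2 f) (Qrel R3 f)
      + dot (Qrel R3 f) (Qrel R1 f) :=
  cyclic_of_eigen h1 h2 h3
    (fun μ g hg hμ => eigen_of_poincare h1 h2 h3 hT hle1 hle2 hle3 hP μ g hg hμ) f

/-- The spectral condition together with connectivity of the classes of the coarser relation
implies the Poincare inequality. -/
theorem poincare_of_eigen {T : Ω → Ω → Prop} [DecidableRel T]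
    (h1 : Equivalence R1) (h2 : Equivalence R2) (h3 : Equivalence R3) (hT : Equivalence T)
    (hle1 : ∀ x y, R1 x y → T x y) (hle2 : ∀ x y, R2 x y → T x y)
    (hle3 : ∀ x y, R3 x y → T x y)
    (hconn : ∀ g : Ω → ℝ, (∀ x y, R1 x y → g x = g y) → (∀ x y, R2 x y → g x = g y) →
      (∀ x y, R3 x y → g x = g y) → ∀ x y, T x y → g x = g y)
    (heig : ∀ (μ : ℝ) (g : Ω → ℝ), g ≠ 0 → K3 R1 R2 R3 g = μ • g → μ = 0 ∨ 1 ≤ μ)
    (f : Ω → ℝ) :
    dot (Qrel T f) (Qrel T f) ≤ dot (Qrel R1 f) (Qrel R1 f)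
      + dot (Qrel R2 f) (Qrel R2 f) + dot (Qrel R3 f) (Qrel R3 f) := by
  have hker : ∀ h : Ω → ℝ, K3 R1 R2 R3 h = 0 → dot (Qrel T f) h = 0 := by
    intro h hh
    have e := dot_K3_self h1 h2 h3 h
    rw [hh, dot_zero_right] at e
    have n1 := dot_self_nonneg (Qrel R1 h)
    have n2 := dot_self_nonneg (Qrel R2 h)
    have n3 := dot_self_nonneg (Qrel R3 h)
    have z1 : Qrel R1 h = 0 := dot_self_eq_zero (by linarith)
    have z2 : Qrel R2 h = 0 := dot_self_eq_zero (by linarith)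
    have z3 : Qrel R3 h = 0 := dot_self_eq_zero (by linarith)
    have hinv := hconn h (inv_of_Qrel_eq_zero h1 h z1) (inv_of_Qrel_eq_zero h2 h z2)
      (inv_of_Qrel_eq_zero h3 h z3)
    rw [← Qrel_dot hT, Qrel_eq_zero_of_inv hT h hinv, dot_zero_right]
  have hgap := Pending.spec_gap (K3 R1 R2 R3) (K3_add R1 R2 R3) (K3_smul R1 R2 R3)
    (K3_dot h1 h2 h3) 1 heig (Qrel T f) hker
  have hK : K3 R1 R2 R3 (Qrel T f) = K3 R1 R2 R3 f := by
    have e : Qrel T f = f + (-1 : ℝ) • avgRel T f := by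
      unfold Qrel; funext x; simp [sub_eq_add_neg]
    have z : K3 R1 R2 R3 (avgRel T f) = 0 := by
      unfold K3
      rw [Qrel_avgRel_of_le h1 hT hle1, Qrel_avgRel_of_le h2 hT hle2,
        Qrel_avgRel_of_le h3 hT hle3]
      simp
    rw [e, K3_add, K3_smul, z]
    simp
  have e2 : dot (Qrel T f) (K3 R1 R2 R3 f) = dot f (K3 R1 R2 R3 f) := by
    have z : K3 R1 R2 R3 (avgRel T f) = 0 := by
      unfold K3
      rw [Qrel_avgRel_of_le h1 hT hle1, Qrel_avgRel_of_le h2 hT hle2,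
        Qrel_avgRel_of_le h3 hT hle3]
      simp
    have e3 : dot (avgRel T f) (K3 R1 R2 R3 f) = 0 := by
      rw [K3_dot h1 h2 h3 (avgRel T f) f, z, dot_zero_left]
    unfold Qrel
    rw [dot_sub_left, e3, sub_zero]
  rw [hK, e2, dot_K3_self h1 h2 h3, one_mul] at hgap
  exact hgap

end K3

end

end Vale.Agent.H88.CT
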