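import Vale.Agent.H88.CT.RowPair

/-!
The `2 x 2` heat-bath chain on contingency tables: comparison with the row-pair heat-bath
chain (unconditional, via the one-dimensional three-variable theorem and the triple trick in
the column direction), and the mixing bound under the three-row hypothesis.
-/

namespace Vale.Agent.H88.CT

open Finset Vale.Agent.H90

set_option linter.unusedSectionVars false

variable {m n : ℕ} {r : Fin m → ℕ} {c : Fin n → ℕ}

theorem blockRel_le_rowRel (i j : Fin m) (a b : Fin n) (X Y : Omega r c)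
    (h : BlockRel i j a b X Y) : RowRel i j X Y := by
  intro k hki hkj
  funext l
  exact h k l (by tauto)

theorem blockRel_le_block3 (i j : Fin m) (a b d : Fin n) (X Y : Omega r c)
    (h : BlockRel i j a b X Y) : Block3Rel i j a b d X Y :=
  fun k l hkl => h k l (by tauto)

theorem blockRel_le_block3' (i j : Fin m) (a b d : Fin n) (X Y : Omega r c)
    (h : BlockRel i j b d X Y) : Block3Rel i j a b d X Y :=
  fun k l hkl => h k l (by tauto)

theorem blockRel_le_block3'' (i j : Fin m) (a b d : Fin n) (X Y : Omega r c)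
    (h : BlockRel i j d a X Y) : Block3Rel i j a b d X Y :=
  fun k l hkl => h k l (by tauto)

/-- The cyclic inequality for three columns inside a row pair (unconditional). -/
theorem block_cyclic (i j : Fin m) (hij : i ≠ j) (a b d : Fin n) (hab : a ≠ b) (hbd : b ≠ d)
    (had : a ≠ d) (f : Omega r c → ℝ) :
    0 ≤ dot (Qrel (BlockRel i j a b) f) (Qrel (BlockRel i j b d) f)
      + dot (Qrel (BlockRel i j b d) f) (Qrel (BlockRel i j d a) f)
      + dot (Qrel (BlockRel i j d a) f) (Qrel (BlockRel i j a b) f) := by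
  refine cyclic_of_poincare (T := Block3Rel (r := r) (c := c) i j a b d)
    (Rows.blockRel_equiv i j a b) (Rows.blockRel_equiv i j b d) (Rows.blockRel_equiv i j d a)
    (Rows.block3Rel_equiv i j a b d) (blockRel_le_block3 i j a b d)
    (blockRel_le_block3' i j a b d) (blockRel_le_block3'' i j a b d) ?_ f
  intro g
  have h := Rows.block3_ineq i j hij a b d hab hbd had g
  rw [sum_sq_eq_dot, sum_sq_eq_dot, sum_sq_eq_dot, sum_sq_eq_dot] at h
  exact h

/-- Inside a row-pair fibre the `2 x 2` heat baths dominate the row-pair heat bath. -/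
theorem block_compare (i j : Fin m) (hij : i ≠ j) (f : Omega r c → ℝ) :
    2 * dot (Qrel (RowRel i j) f) (Qrel (RowRel i j) f)
      ≤ ∑ a : Fin n, ∑ b : Fin n,
          if a ≠ b then dot (Qrel (BlockRel i j a b) f) (Qrel (BlockRel i j a b) f) else 0 := by
  set relB : Fin n → Fin n → Omega r c → Omega r c → Prop := fun a b => BlockRel i j a b
    with hrelB
  have heq : ∀ a b, Equivalence (relB a b) := fun a b => Rows.blockRel_equiv i j a b
  have hker : ∀ h : Omega r c → ℝ, Ksum relB h = 0 → dot (Qrel (RowRel i j) f) h = 0 := by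
    intro h hh
    have hinv : ∀ a b, a ≠ b → ∀ X Y, BlockRel i j a b X Y → h X = h Y :=
      fun a b hab => inv_of_Qrel_eq_zero (heq a b) h
        (Qrel_eq_zero_of_Ksum (rel := relB) heq h hh a b hab)
    have hrow := Rows.block_inv_rowRel i j hij h hinv
    rw [← Qrel_dot (Rows.rowRel_equiv i j), Qrel_eq_zero_of_inv (Rows.rowRel_equiv i j) h hrow,
      dot_zero_right]
  have hgap := Ksum_gap (rel := relB) heq
    (fun a b X Y => Rows.blockRel_comm i j a b X Y)
    (fun a b a' b' h1 h2 h3 h4 X Y Z hXY hYZ =>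
      Rows.blockRel_square i j hij a b a' b' h1 h2 h3 h4 X Y Z hXY hYZ)
    (fun a b a' b' h1 h2 h3 h4 X Y hXY hXY' =>
      Rows.blockRel_inter i j a b a' b' h1 h2 h3 h4 X Y hXY hXY')
    (fun a b d hab hbd had g => block_cyclic i j hij a b d hab hbd had g)
    (Qrel (RowRel i j) f) hker
  have hz : Ksum relB (avgRel (RowRel i j) f) = 0 := by
    unfold Ksum
    refine Finset.sum_eq_zero (fun a _ => Finset.sum_eq_zero (fun b _ => ?_))
    split_ifs
    · exact Qrel_avgRel_of_le (heq a b) (Rows.rowRel_equiv i j)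
        (blockRel_le_rowRel i j a b) f
    · rfl
  have hK : Ksum relB (Qrel (RowRel i j) f) = Ksum relB f := by
    have e : Qrel (RowRel i j) f = f + (-1 : ℝ) • avgRel (RowRel i j) f := by
      unfold Qrel; funext x; simp [sub_eq_add_neg]
    rw [e, Ksum_add, Ksum_smul, hz]
    simp
  have e2 : dot (Qrel (RowRel i j) f) (Ksum relB f) = dot f (Ksum relB f) := by
    have e3 : dot (avgRel (RowRel i j) f) (Ksum relB f) = 0 := by
      rw [Ksum_dot heq (avgRel (RowRel i j) f) f, hz, dot_zero_left]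
    unfold Qrel
    rw [dot_sub_left, e3, sub_zero]
  rw [hK, e2, dot_Ksum_self (rel := relB) heq f] at hgap
  exact hgap

theorem card_good_block (hm : 1 ≤ m) (hn : 1 ≤ n) :
    (((univ : Finset ((Fin m × Fin m) × (Fin n × Fin n))).filter
        (fun q => q.1.1 ≠ q.1.2 ∧ q.2.1 ≠ q.2.2)).card : ℝ)
      = (m : ℝ) * (m - 1) * ((n : ℝ) * (n - 1)) := by
  have h1 : (univ : Finset ((Fin m × Fin m) × (Fin n × Fin n))).filter
        (fun q => q.1.1 ≠ q.1.2 ∧ q.2.1 ≠ q.2.2)
      = ((univ : Finset (Fin m × Fin m)).filter (fun p => p.1 ≠ p.2))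
          ×ˢ ((univ : Finset (Fin n × Fin n)).filter (fun p => p.1 ≠ p.2)) := by
    ext q
    simp
  rw [h1, Finset.card_product, Nat.cast_mul, card_offDiag_fin m hm, card_offDiag_fin n hn]

theorem blockChain_eq (r : Fin m → ℕ) (c : Fin n → ℕ) :
    blockChain r c = mixK
      (fun q : (Fin m × Fin m) × (Fin n × Fin n) =>
        BlockRel (r := r) (c := c) q.1.1 q.1.2 q.2.1 q.2.2)
      (fun q => q.1.1 ≠ q.1.2 ∧ q.2.1 ≠ q.2.2)
      (1 / ((m : ℝ) * (m - 1) * ((n : ℝ) * (n - 1)))) := by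
  unfold blockChain mixK
  congr 1
  simp only [Fintype.sum_prod_type]
  rfl

theorem block_weight (hm : 2 ≤ m) (hn : 2 ≤ n) :
    1 / ((m : ℝ) * (m - 1) * ((n : ℝ) * (n - 1)))
      * (((univ : Finset ((Fin m × Fin m) × (Fin n × Fin n))).filter
        (fun q => q.1.1 ≠ q.1.2 ∧ q.2.1 ≠ q.2.2)).card : ℝ) = 1 := by
  rw [card_good_block (by omega) (by omega)]
  have h1 : (2 : ℝ) ≤ m := by exact_mod_cast hm
  have h1' : (2 : ℝ) ≤ n := by exact_mod_cast hn
  have h2 : (m : ℝ) ≠ 0 := by linarith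
  have h3 : (m : ℝ) - 1 ≠ 0 := by linarith
  have h4 : (n : ℝ) ≠ 0 := by linarith
  have h5 : (n : ℝ) - 1 ≠ 0 := by linarith
  field_simp

theorem block_dirichlet (hm : 2 ≤ m) (hn : 2 ≤ n) (f : Omega r c → ℝ) :
    (1 / 2 : ℝ) * ∑ X, ∑ Y, blockChain r c X Y * (f X - f Y) ^ 2
      = 1 / ((m : ℝ) * (m - 1) * ((n : ℝ) * (n - 1)))
        * ∑ i : Fin m, ∑ j : Fin m, ∑ a : Fin n, ∑ b : Fin n,
            if i ≠ j ∧ a ≠ b then
              dot (Qrel (BlockRel i j a b) f) (Qrel (BlockRel i j a b) f) else 0 := by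
  rw [blockChain_eq, mixK_dirichlet
    (fun q : (Fin m × Fin m) × (Fin n × Fin n) =>
      BlockRel (r := r) (c := c) q.1.1 q.1.2 q.2.1 q.2.2)
    (fun q => q.1.1 ≠ q.1.2 ∧ q.2.1 ≠ q.2.2)
    (fun q => Rows.blockRel_equiv q.1.1 q.1.2 q.2.1 q.2.2) _ (block_weight hm hn) f]
  simp only [Fintype.sum_prod_type]

theorem rowPair_dirichlet (hm : 2 ≤ m) (f : Omega r c → ℝ) :
    (1 / 2 : ℝ) * ∑ X, ∑ Y, rowPairChain r c X Y * (f X - f Y) ^ 2
      = 1 / ((m : ℝ) * (m - 1))
        * ∑ i : Fin m, ∑ j : Fin m,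
            if i ≠ j then dot (Qrel (RowRel i j) f) (Qrel (RowRel i j) f) else 0 := by
  rw [rowPairChain_eq, mixK_dirichlet (fun p : Fin m × Fin m => RowRel (r := r) (c := c) p.1 p.2)
    (fun p => p.1 ≠ p.2) (fun p => Rows.rowRel_equiv p.1 p.2) _ (rowPair_weight hm) f]
  rw [Fintype.sum_prod_type]

/-- Comparison theorem (unconditional): the Dirichlet form of the `2 x 2` heat-bath chain
dominates `2 / (n (n - 1))` times the Dirichlet form of the row-pair heat-bath chain. -/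
theorem block_comparison (hm : 2 ≤ m) (hn : 2 ≤ n) (r : Fin m → ℕ) (c : Fin n → ℕ)
    (f : Omega r c → ℝ) :
    2 / ((n : ℝ) * (n - 1))
        * ((1 / 2 : ℝ) * ∑ X, ∑ Y, rowPairChain r c X Y * (f X - f Y) ^ 2)
      ≤ (1 / 2 : ℝ) * ∑ X, ∑ Y, blockChain r c X Y * (f X - f Y) ^ 2 := by
  rw [block_dirichlet hm hn f, rowPair_dirichlet hm f]
  have h1 : (2 : ℝ) ≤ m := by exact_mod_cast hm
  have h1' : (2 : ℝ) ≤ n := by exact_mod_cast hn
  have hpm : (0 : ℝ) < (m : ℝ) * (m - 1) := by nlinarith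
  have hpn : (0 : ℝ) < (n : ℝ) * (n - 1) := by nlinarith
  have key : 2 * ∑ i : Fin m, ∑ j : Fin m,
        (if i ≠ j then dot (Qrel (RowRel (r := r) (c := c) i j) f) (Qrel (RowRel i j) f) else 0)
      ≤ ∑ i : Fin m, ∑ j : Fin m, ∑ a : Fin n, ∑ b : Fin n,
          if i ≠ j ∧ a ≠ b then
            dot (Qrel (BlockRel (r := r) (c := c) i j a b) f) (Qrel (BlockRel i j a b) f)
          else 0 := by
    rw [Finset.mul_sum]
    refine Finset.sum_le_sum (fun i _ => ?_)
    rw [Finset.mul_sum]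
    refine Finset.sum_le_sum (fun j _ => ?_)
    by_cases hij : i ≠ j
    · have e : ∀ a b : Fin n, (if i ≠ j ∧ a ≠ b then
            dot (Qrel (BlockRel (r := r) (c := c) i j a b) f) (Qrel (BlockRel i j a b) f) else 0)
          = (if a ≠ b then
            dot (Qrel (BlockRel (r := r) (c := c) i j a b) f) (Qrel (BlockRel i j a b) f)
            else 0) := by
        intro a b
        by_cases hab : a ≠ b
        · rw [if_pos ⟨hij, hab⟩, if_pos hab]
        · rw [if_neg (fun h => hab h.2), if_neg hab]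
      simp only [e]
      rw [if_pos hij]
      exact block_compare i j hij f
    · have e : ∀ a b : Fin n, (if i ≠ j ∧ a ≠ b then
            dot (Qrel (BlockRel (r := r) (c := c) i j a b) f) (Qrel (BlockRel i j a b) f) else 0)
          = 0 := by
        intro a b
        rw [if_neg (fun h => hij h.1)]
      simp only [e]
      rw [if_neg hij]
      simp
  have hw : (0 : ℝ) ≤ 1 / ((m : ℝ) * (m - 1) * ((n : ℝ) * (n - 1))) := by positivity
  calc 2 / ((n : ℝ) * (n - 1)) * (1 / ((m : ℝ) * (m - 1)) * ∑ i : Fin m, ∑ j : Fin m,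
          if i ≠ j then dot (Qrel (RowRel (r := r) (c := c) i j) f) (Qrel (RowRel i j) f) else 0)
      = 1 / ((m : ℝ) * (m - 1) * ((n : ℝ) * (n - 1))) * (2 * ∑ i : Fin m, ∑ j : Fin m,
          if i ≠ j then dot (Qrel (RowRel (r := r) (c := c) i j) f) (Qrel (RowRel i j) f)
          else 0) := by
        field_simp
    _ ≤ _ := mul_le_mul_of_nonneg_left key hw

/-- Poincare inequality for the `2 x 2` heat-bath chain under the three-row hypothesis. -/
theorem block_poincare (hyp : TripleHyp) (hm : 2 ≤ m) (hn : 2 ≤ n) (f : Omega r c → ℝ)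
    (hf : ∑ X, f X = 0) :
    4 / ((m : ℝ) * (m - 1) * ((n : ℝ) * (n - 1))) * ∑ X, f X ^ 2
      ≤ (1 / 2 : ℝ) * ∑ X, ∑ Y, blockChain r c X Y * (f X - f Y) ^ 2 := by
  have h1 : (2 : ℝ) ≤ m := by exact_mod_cast hm
  have h1' : (2 : ℝ) ≤ n := by exact_mod_cast hn
  have hpm : (0 : ℝ) < (m : ℝ) * (m - 1) := by nlinarith
  have hpn : (0 : ℝ) < (n : ℝ) * (n - 1) := by nlinarith
  have hA := rowPair_poincare hyp hm f hf
  have hB := block_comparison hm hn r c f
  have hw : (0 : ℝ) ≤ 2 / ((n : ℝ) * (n - 1)) := by positivity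
  calc 4 / ((m : ℝ) * (m - 1) * ((n : ℝ) * (n - 1))) * ∑ X, f X ^ 2
      = 2 / ((n : ℝ) * (n - 1)) * (2 / ((m : ℝ) * (m - 1)) * ∑ X, f X ^ 2) := by
        field_simp; ring
    _ ≤ 2 / ((n : ℝ) * (n - 1))
          * ((1 / 2 : ℝ) * ∑ X, ∑ Y, rowPairChain r c X Y * (f X - f Y) ^ 2) :=
        mul_le_mul_of_nonneg_left hA hw
    _ ≤ _ := hB

/-- Mixing of the lazy `2 x 2` heat-bath chain under the three-row hypothesis. -/
theorem block_mixing (hyp : TripleHyp) (hm : 2 ≤ m) (hn : 2 ≤ n) (r : Fin m → ℕ)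
    (c : Fin n → ℕ) (t : ℕ) (X : Omega r c) :
    (∑ Y, |(((1 / 2 : ℝ) • (1 + blockChain r c)) ^ t) X Y
        - 1 / (Fintype.card (Omega r c) : ℝ)|) ^ 2
      ≤ (Fintype.card (Omega r c) : ℝ)
        * (1 - 2 / ((m : ℝ) * (m - 1) * ((n : ℝ) * (n - 1)))) ^ t := by
  have h1 : (2 : ℝ) ≤ m := by exact_mod_cast hm
  have h1' : (2 : ℝ) ≤ n := by exact_mod_cast hn
  have hpm : (0 : ℝ) < (m : ℝ) * (m - 1) := by nlinarith
  have hpn : (0 : ℝ) < (n : ℝ) * (n - 1) := by nlinarith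
  have hpos : (0 : ℝ) < (m : ℝ) * (m - 1) * ((n : ℝ) * (n - 1)) := mul_pos hpm hpn
  have hK := blockChain_eq r c
  have hsymm : ∀ X Y, blockChain r c X Y = blockChain r c Y X := by
    intro X Y; rw [hK]
    exact mixK_symm (fun q : (Fin m × Fin m) × (Fin n × Fin n) =>
        BlockRel (r := r) (c := c) q.1.1 q.1.2 q.2.1 q.2.2)
      (fun q => q.1.1 ≠ q.1.2 ∧ q.2.1 ≠ q.2.2)
      (fun q => Rows.blockRel_equiv q.1.1 q.1.2 q.2.1 q.2.2) _ X Y
  have hnn : ∀ X Y, 0 ≤ blockChain r c X Y := by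
    intro X Y; rw [hK]
    exact mixK_nonneg (fun q : (Fin m × Fin m) × (Fin n × Fin n) =>
        BlockRel (r := r) (c := c) q.1.1 q.1.2 q.2.1 q.2.2)
      (fun q => q.1.1 ≠ q.1.2 ∧ q.2.1 ≠ q.2.2) _ (by positivity) X Y
  have hrow : ∀ X, ∑ Y, blockChain r c X Y = 1 := by
    intro X; rw [hK]
    exact mixK_row (fun q : (Fin m × Fin m) × (Fin n × Fin n) =>
        BlockRel (r := r) (c := c) q.1.1 q.1.2 q.2.1 q.2.2)
      (fun q => q.1.1 ≠ q.1.2 ∧ q.2.1 ≠ q.2.2)
      (fun q => Rows.blockRel_equiv q.1.1 q.1.2 q.2.1 q.2.2) _ (block_weight hm hn) X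
  have hpm2 : (2 : ℝ) ≤ (m : ℝ) * (m - 1) := by nlinarith
  have hpn2 : (2 : ℝ) ≤ (n : ℝ) * (n - 1) := by nlinarith
  have hγ : 4 / ((m : ℝ) * (m - 1) * ((n : ℝ) * (n - 1))) ≤ 2 := by
    rw [div_le_iff₀ hpos]
    nlinarith [mul_nonneg (sub_nonneg.2 hpm2) (sub_nonneg.2 hpn2)]
  have key := Vale.Agent.H12.MixCore.l1_bound (blockChain r c) hsymm hnn hrow
    (4 / ((m : ℝ) * (m - 1) * ((n : ℝ) * (n - 1)))) hγ
    (fun f hf => block_poincare hyp hm hn f hf) t X
  have e : 1 - 4 / ((m : ℝ) * (m - 1) * ((n : ℝ) * (n - 1))) / 2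
      = 1 - 2 / ((m : ℝ) * (m - 1) * ((n : ℝ) * (n - 1))) := by
    field_simp; ring
  rw [e] at key
  exact key

end Vale.Agent.H88.CT
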