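import Vale.Agent.H88.CT.Block

/-!
Cardinality bound for classes of contingency tables and the passage from the squared
`ℓ¹` decay bound to an explicit mixing time.
-/

namespace Vale.Agent.H88.CT

open Finset Vale.Agent.H90

set_option linter.unusedSectionVars false

variable {m n : ℕ}

theorem card_Omega_le (r : Fin m → ℕ) (c : Fin n → ℕ) :
    Fintype.card (Omega r c) ≤ (∏ j, (c j + 1)) ^ m := by
  classical
  have hinj : Function.Injective
      (fun X : Omega r c => fun (i : Fin m) (j : Fin n) =>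
        (⟨X.1 i j, Nat.lt_succ_of_le (entry_le_col X i j)⟩ : Fin (c j + 1))) := by
    intro X Y h
    apply Subtype.ext
    funext i j
    have := congrFun (congrFun h i) j
    exact Fin.mk.inj_iff.1 this
  have h1 := Fintype.card_le_of_injective _ hinj
  have h2 : Fintype.card (Fin m → (j : Fin n) → Fin (c j + 1)) = (∏ j, (c j + 1)) ^ m := by
    rw [Fintype.card_pi, Fintype.card_pi]
    simp
  rw [h2] at h1
  exact h1

theorem log_card_Omega_le (r : Fin m → ℕ) (c : Fin n → ℕ) (X : Omega r c) :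
    Real.log (Fintype.card (Omega r c) : ℝ) ≤ (m : ℝ) * ∑ j, Real.log ((c j : ℝ) + 1) := by
  have hpos : 0 < Fintype.card (Omega r c) := Fintype.card_pos_iff.mpr ⟨X⟩
  have h1 : (Fintype.card (Omega r c) : ℝ) ≤ ((∏ j, (c j + 1) : ℕ) : ℝ) ^ m := by
    exact_mod_cast card_Omega_le r c
  have h2 : Real.log (Fintype.card (Omega r c) : ℝ)
      ≤ Real.log (((∏ j, (c j + 1) : ℕ) : ℝ) ^ m) :=
    Real.log_le_log (by exact_mod_cast hpos) h1
  rw [Real.log_pow] at h2
  have h3 : Real.log ((∏ j, (c j + 1) : ℕ) : ℝ) = ∑ j, Real.log ((c j : ℝ) + 1) := by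
    rw [Nat.cast_prod, Real.log_prod]
    · refine Finset.sum_congr rfl (fun j _ => ?_)
      push_cast
      rfl
    · intro j _
      positivity
  rw [h3] at h2
  exact h2

/-- From the squared decay bound to an explicit time. -/
theorem eps_of_decay (S N x B ε : ℝ) (t : ℕ) (hS : 0 ≤ S) (hN : 1 ≤ N) (hx0 : 0 < x)
    (hx1 : x ≤ 1) (hsq : S ^ 2 ≤ N * (1 - x) ^ t) (hε : 0 < ε) (hB : Real.log N ≤ B)
    (ht : (B + 2 * Real.log (1 / ε)) / x ≤ t) : S ≤ ε := by
  have hNpos : 0 < N := by linarith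
  have h1 : (1 - x) ^ t ≤ Real.exp (-x) ^ t :=
    pow_le_pow_left₀ (by linarith) (Real.one_sub_le_exp_neg x) t
  have h2 : Real.exp (-x) ^ t = Real.exp (-(x * t)) := by
    rw [← Real.exp_nat_mul]
    congr 1
    ring
  have h3 : B + 2 * Real.log (1 / ε) ≤ x * t := by
    rw [div_le_iff₀ hx0] at ht
    linarith
  have h4 : Real.exp (-(x * t)) ≤ Real.exp (-(Real.log N + 2 * Real.log (1 / ε))) := by
    apply Real.exp_le_exp.2
    linarith
  have h5 : Real.exp (-(Real.log N + 2 * Real.log (1 / ε))) = ε ^ 2 / N := by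
    have e1 : Real.log (1 / ε) = -Real.log ε := by
      rw [one_div, Real.log_inv]
    rw [e1]
    have e2 : -(Real.log N + 2 * -Real.log ε) = 2 * Real.log ε - Real.log N := by ring
    rw [e2, Real.exp_sub, Real.exp_log hNpos]
    congr 1
    have e3 : (2 : ℝ) * Real.log ε = Real.log ε + Real.log ε := by ring
    rw [e3, Real.exp_add, Real.exp_log hε]
    ring
  have h6 : S ^ 2 ≤ ε ^ 2 := by
    calc S ^ 2 ≤ N * (1 - x) ^ t := hsq
      _ ≤ N * (ε ^ 2 / N) := by
          apply mul_le_mul_of_nonneg_left _ hNpos.le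
          calc (1 - x) ^ t ≤ Real.exp (-x) ^ t := h1
            _ = Real.exp (-(x * t)) := h2
            _ ≤ Real.exp (-(Real.log N + 2 * Real.log (1 / ε))) := h4
            _ = ε ^ 2 / N := h5
      _ = ε ^ 2 := by field_simp
  by_contra hcon
  have hlt : ε < S := lt_of_not_ge hcon
  nlinarith

/-- Mixing time of the lazy row-pair heat-bath chain under the three-row hypothesis. -/
theorem rowPair_mixing_time (hyp : TripleHyp) (hm : 2 ≤ m) (r : Fin m → ℕ) (c : Fin n → ℕ)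
    (ε : ℝ) (hε : 0 < ε) (t : ℕ)
    (ht : (m : ℝ) * (m - 1) * ((m : ℝ) * ∑ j, Real.log ((c j : ℝ) + 1)
      + 2 * Real.log (1 / ε)) ≤ t) (X : Omega r c) :
    (1 / 2 : ℝ) * ∑ Y, |(((1 / 2 : ℝ) • (1 + rowPairChain r c)) ^ t) X Y
        - 1 / (Fintype.card (Omega r c) : ℝ)| ≤ ε := by
  have h1 : (2 : ℝ) ≤ m := by exact_mod_cast hm
  have hpos : (0 : ℝ) < (m : ℝ) * (m - 1) := by nlinarith
  have hp2 : (2 : ℝ) ≤ (m : ℝ) * (m - 1) := by nlinarith
  have hcard : (1 : ℝ) ≤ (Fintype.card (Omega r c) : ℝ) := by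
    have : 0 < Fintype.card (Omega r c) := Fintype.card_pos_iff.mpr ⟨X⟩
    exact_mod_cast this
  have hS : 0 ≤ ∑ Y, |(((1 / 2 : ℝ) • (1 + rowPairChain r c)) ^ t) X Y
        - 1 / (Fintype.card (Omega r c) : ℝ)| :=
    Finset.sum_nonneg (fun Y _ => abs_nonneg _)
  have key := eps_of_decay _ (Fintype.card (Omega r c) : ℝ) (1 / ((m : ℝ) * (m - 1)))
    ((m : ℝ) * ∑ j, Real.log ((c j : ℝ) + 1)) ε t hS hcard (by positivity)
    (by rw [div_le_iff₀ hpos]; linarith) (rowPair_mixing hyp hm r c t X) hε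
    (log_card_Omega_le r c X)
    (by
      have e : ((m : ℝ) * ∑ j, Real.log ((c j : ℝ) + 1) + 2 * Real.log (1 / ε))
          / (1 / ((m : ℝ) * (m - 1)))
          = (m : ℝ) * (m - 1) * ((m : ℝ) * ∑ j, Real.log ((c j : ℝ) + 1)
            + 2 * Real.log (1 / ε)) := by
        field_simp
      rw [e]; exact ht)
  linarith

/-- Mixing time of the lazy `2 x 2` heat-bath chain under the three-row hypothesis. -/
theorem block_mixing_time (hyp : TripleHyp) (hm : 2 ≤ m) (hn : 2 ≤ n) (r : Fin m → ℕ)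
    (c : Fin n → ℕ) (ε : ℝ) (hε : 0 < ε) (t : ℕ)
    (ht : (m : ℝ) * (m - 1) * ((n : ℝ) * (n - 1)) / 2
      * ((m : ℝ) * ∑ j, Real.log ((c j : ℝ) + 1) + 2 * Real.log (1 / ε)) ≤ t)
    (X : Omega r c) :
    (1 / 2 : ℝ) * ∑ Y, |(((1 / 2 : ℝ) • (1 + blockChain r c)) ^ t) X Y
        - 1 / (Fintype.card (Omega r c) : ℝ)| ≤ ε := by
  have h1 : (2 : ℝ) ≤ m := by exact_mod_cast hm
  have h1' : (2 : ℝ) ≤ n := by exact_mod_cast hn
  have hpm : (0 : ℝ) < (m : ℝ) * (m - 1) := by nlinarith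
  have hpn : (0 : ℝ) < (n : ℝ) * (n - 1) := by nlinarith
  have hpm2 : (2 : ℝ) ≤ (m : ℝ) * (m - 1) := by nlinarith
  have hpn2 : (2 : ℝ) ≤ (n : ℝ) * (n - 1) := by nlinarith
  have hpos : (0 : ℝ) < (m : ℝ) * (m - 1) * ((n : ℝ) * (n - 1)) := mul_pos hpm hpn
  have hcard : (1 : ℝ) ≤ (Fintype.card (Omega r c) : ℝ) := by
    have : 0 < Fintype.card (Omega r c) := Fintype.card_pos_iff.mpr ⟨X⟩
    exact_mod_cast this
  have hS : 0 ≤ ∑ Y, |(((1 / 2 : ℝ) • (1 + blockChain r c)) ^ t) X Y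
        - 1 / (Fintype.card (Omega r c) : ℝ)| :=
    Finset.sum_nonneg (fun Y _ => abs_nonneg _)
  have key := eps_of_decay _ (Fintype.card (Omega r c) : ℝ)
    (2 / ((m : ℝ) * (m - 1) * ((n : ℝ) * (n - 1))))
    ((m : ℝ) * ∑ j, Real.log ((c j : ℝ) + 1)) ε t hS hcard (by positivity)
    (by
      rw [div_le_iff₀ hpos]
      nlinarith [mul_nonneg (sub_nonneg.2 hpm2) (sub_nonneg.2 hpn2)])
    (block_mixing hyp hm hn r c t X) hε (log_card_Omega_le r c X)
    (by
      have e : ((m : ℝ) * ∑ j, Real.log ((c j : ℝ) + 1) + 2 * Real.log (1 / ε))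
          / (2 / ((m : ℝ) * (m - 1) * ((n : ℝ) * (n - 1))))
          = (m : ℝ) * (m - 1) * ((n : ℝ) * (n - 1)) / 2
            * ((m : ℝ) * ∑ j, Real.log ((c j : ℝ) + 1) + 2 * Real.log (1 / ε)) := by
        field_simp
      rw [e]; exact ht)
  linarith

end Vale.Agent.H88.CT
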