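import Vale.Agent.H88.CT.Abstract
import Vale.Agent.H12.MixCore

/-!
Mixtures of heat-bath kernels of equivalence relations on a finite set: symmetry, row sums,
and the Dirichlet form identity.
-/

namespace Vale.Agent.H88.CT

open Finset Vale.Agent.H90

set_option linter.unusedSectionVars false

section Mix

variable {Ω : Type*} [Fintype Ω] [DecidableEq Ω]

/-- Heat-bath kernel of a relation on a finite type. -/
noncomputable def hbG (rel : Ω → Ω → Prop) [DecidableRel rel] : Matrix Ω Ω ℝ :=
  fun X Y => if rel X Y then 1 / ((univ.filter (fun Z => rel X Z)).card : ℝ) else 0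

theorem hbG_nonneg (rel : Ω → Ω → Prop) [DecidableRel rel] (X Y : Ω) : 0 ≤ hbG rel X Y := by
  unfold hbG
  split_ifs
  · positivity
  · exact le_refl _

theorem hbG_symm {rel : Ω → Ω → Prop} [DecidableRel rel] (h : Equivalence rel) (X Y : Ω) :
    hbG rel X Y = hbG rel Y X := by
  unfold hbG
  by_cases hxy : rel X Y
  · have hyx : rel Y X := h.symm hxy
    rw [if_pos hxy, if_pos hyx, class_eq h hxy]
  · have hyx : ¬ rel Y X := fun h' => hxy (h.symm h')
    rw [if_neg hxy, if_neg hyx]

theorem hbG_mulVec {rel : Ω → Ω → Prop} [DecidableRel rel] (f : Ω → ℝ) (X : Ω) :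
    ∑ Y, hbG rel X Y * f Y = avgRel rel f X := by
  unfold hbG avgRel
  rw [Finset.sum_div, Finset.sum_filter]
  refine Finset.sum_congr rfl (fun Y _ => ?_)
  split_ifs
  · ring
  · ring

theorem hbG_row {rel : Ω → Ω → Prop} [DecidableRel rel] (h : Equivalence rel) (X : Ω) :
    ∑ Y, hbG rel X Y = 1 := by
  have e := hbG_mulVec (rel := rel) (fun _ => (1 : ℝ)) X
  simp only [mul_one] at e
  rw [e]
  have : avgRel rel (fun _ => (1 : ℝ)) = fun _ => (1 : ℝ) :=
    avgRel_eq_self h _ (fun _ _ _ => rfl)
  rw [this]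

variable {ι : Type*} [Fintype ι] (rel : ι → Ω → Ω → Prop) [∀ s, DecidableRel (rel s)]
  (good : ι → Prop) [DecidablePred good]

/-- A mixture of heat-bath kernels with total weight `w * #good`. -/
noncomputable def mixK (w : ℝ) : Matrix Ω Ω ℝ :=
  w • ∑ s, if good s then hbG (rel s) else 0

theorem mixK_apply (w : ℝ) (X Y : Ω) :
    mixK rel good w X Y = w * ∑ s, if good s then hbG (rel s) X Y else 0 := by
  unfold mixK
  rw [Matrix.smul_apply, Matrix.sum_apply, smul_eq_mul]
  congr 1
  refine Finset.sum_congr rfl (fun s _ => ?_)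
  split_ifs
  · rfl
  · rfl

theorem mixK_nonneg (w : ℝ) (hw : 0 ≤ w) (X Y : Ω) : 0 ≤ mixK rel good w X Y := by
  rw [mixK_apply]
  refine mul_nonneg hw (Finset.sum_nonneg (fun s _ => ?_))
  split_ifs
  · exact hbG_nonneg _ _ _
  · exact le_refl _

theorem mixK_symm (heq : ∀ s, Equivalence (rel s)) (w : ℝ) (X Y : Ω) :
    mixK rel good w X Y = mixK rel good w Y X := by
  rw [mixK_apply, mixK_apply]
  congr 1
  refine Finset.sum_congr rfl (fun s _ => ?_)
  split_ifs
  · exact hbG_symm (heq s) X Y
  · rfl

theorem mixK_row (heq : ∀ s, Equivalence (rel s)) (w : ℝ)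
    (hw : w * ((univ.filter good).card : ℝ) = 1) (X : Ω) :
    ∑ Y, mixK rel good w X Y = 1 := by
  simp only [mixK_apply]
  rw [← Finset.mul_sum, Finset.sum_comm]
  have : ∀ s, ∑ Y, (if good s then hbG (rel s) X Y else 0) = if good s then (1 : ℝ) else 0 := by
    intro s
    split_ifs
    · exact hbG_row (heq s) X
    · simp
  simp only [this]
  rw [Finset.sum_ite, Finset.sum_const_zero, add_zero, Finset.sum_const, nsmul_eq_mul, mul_one]
  exact hw

theorem mixK_mulVec (w : ℝ) (f : Ω → ℝ) (X : Ω) :
    (mixK rel good w).mulVec f X = w * ∑ s, if good s then avgRel (rel s) f X else 0 := by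
  unfold Matrix.mulVec dotProduct
  simp only [mixK_apply]
  simp only [mul_assoc]
  rw [← Finset.mul_sum]
  congr 1
  simp only [Finset.sum_mul]
  rw [Finset.sum_comm]
  refine Finset.sum_congr rfl (fun s _ => ?_)
  split_ifs
  · exact hbG_mulVec f X
  · simp

/-- The Dirichlet form of a mixture of heat baths. -/
theorem mixK_dirichlet (heq : ∀ s, Equivalence (rel s)) (w : ℝ)
    (hw : w * ((univ.filter good).card : ℝ) = 1) (f : Ω → ℝ) :
    (1 / 2 : ℝ) * ∑ X, ∑ Y, mixK rel good w X Y * (f X - f Y) ^ 2
      = w * ∑ s, if good s then dot (Qrel (rel s) f) (Qrel (rel s) f) else 0 := by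
  rw [Vale.Agent.H12.MixCore.dirichlet_eq (mixK rel good w) (mixK_symm rel good heq w)
    (mixK_row rel good heq w hw) f]
  have e1 : ∑ X, f X * (mixK rel good w).mulVec f X
      = w * ∑ s, if good s then dot f (avgRel (rel s) f) else 0 := by
    simp only [mixK_mulVec]
    have : ∀ X, f X * (w * ∑ s, if good s then avgRel (rel s) f X else 0)
        = w * ∑ s, if good s then f X * avgRel (rel s) f X else 0 := by
      intro X
      rw [mul_left_comm, Finset.mul_sum]
      congr 1
      refine Finset.sum_congr rfl (fun s _ => ?_)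
      split_ifs
      · rfl
      · simp
    simp only [this]
    rw [← Finset.mul_sum, Finset.sum_comm]
    congr 1
    refine Finset.sum_congr rfl (fun s _ => ?_)
    split_ifs
    · rfl
    · simp
  have e2 : ∑ X, f X ^ 2 = w * ∑ s, if good s then dot f f else 0 := by
    rw [Finset.sum_ite, Finset.sum_const_zero, add_zero, Finset.sum_const, nsmul_eq_mul,
      ← mul_assoc, hw, one_mul]
    unfold dot
    exact Finset.sum_congr rfl (fun X _ => by ring)
  rw [e1, e2, ← mul_sub, ← Finset.sum_sub_distrib]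
  congr 1
  refine Finset.sum_congr rfl (fun s _ => ?_)
  split_ifs
  · rw [dot_Qrel_self (heq s)]
    unfold Qrel
    rw [dot_sub_right]
  · simp

end Mix

end Vale.Agent.H88.CT
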