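import Vale.Agent.H88.CT.Squares
import Vale.Agent.H86.CT.Block3
import Vale.Agent.H69.CT.Conn

/-!
Glue file: the facts on classes of contingency tables used by the assembly
(`RowPair.lean`, `Block.lean`, `Final.lean`), collected from the modules of the seats who
proved them.
-/

namespace Vale.Agent.H88.CT.Rows

open Finset Vale.Agent.H90 Vale.Agent.H88.CT

-- ROW CONN
theorem block_inv_rowRel {α : Type*} {m n : ℕ} {r : Fin m → ℕ} {c : Fin n → ℕ}
    (i j : Fin m) (hij : i ≠ j) (f : Omega r c → α)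
    (hf : ∀ a b, a ≠ b → ∀ X Y, BlockRel i j a b X Y → f X = f Y) :
    ∀ X Y, RowRel i j X Y → f X = f Y :=
  Vale.Agent.H69.CT.block_inv_rowRel i j hij f hf

theorem rowRel_inv_const {α : Type*} {m n : ℕ} {r : Fin m → ℕ} {c : Fin n → ℕ}
    (f : Omega r c → α) (hf : ∀ i j, i ≠ j → ∀ X Y, RowRel i j X Y → f X = f Y) :
    ∀ X Y : Omega r c, f X = f Y :=
  Vale.Agent.H69.CT.rowRel_inv_const f hf

theorem block_inv_block3 {α : Type*} {m n : ℕ} {r : Fin m → ℕ} {c : Fin n → ℕ}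
    (i j : Fin m) (hij : i ≠ j) (a b d : Fin n) (hab : a ≠ b) (hbd : b ≠ d) (had : a ≠ d)
    (f : Omega r c → α)
    (h1 : ∀ X Y, BlockRel i j a b X Y → f X = f Y)
    (h2 : ∀ X Y, BlockRel i j b d X Y → f X = f Y)
    (h3 : ∀ X Y, BlockRel i j d a X Y → f X = f Y) :
    ∀ X Y, Block3Rel i j a b d X Y → f X = f Y :=
  Vale.Agent.H69.CT.block_inv_block3 i j hij a b d hab hbd had f h1 h2 h3

-- ROW SQUARE (module `Vale.Agent.H88.CT.Squares`)
theorem rowRel_equiv {m n : ℕ} {r : Fin m → ℕ} {c : Fin n → ℕ} (i j : Fin m) :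
    Equivalence (RowRel (r := r) (c := c) i j) := Sq.rowRel_equiv i j

theorem rowRel_comm {m n : ℕ} {r : Fin m → ℕ} {c : Fin n → ℕ} (i j : Fin m) (X Y : Omega r c) :
    RowRel i j X Y ↔ RowRel j i X Y := Sq.rowRel_comm i j X Y

theorem rowRel_square {m n : ℕ} {r : Fin m → ℕ} {c : Fin n → ℕ} (i j k l : Fin m)
    (hik : i ≠ k) (hil : i ≠ l) (hjk : j ≠ k) (hjl : j ≠ l)
    (X Y Z : Omega r c) (h1 : RowRel i j X Y) (h2 : RowRel k l Y Z) :
    ∃ W : Omega r c, RowRel k l X W ∧ RowRel i j W Z :=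
  Sq.rowRel_square i j k l hik hil hjk hjl X Y Z h1 h2

theorem rowRel_inter {m n : ℕ} {r : Fin m → ℕ} {c : Fin n → ℕ} (i j k l : Fin m)
    (hik : i ≠ k) (hil : i ≠ l) (hjk : j ≠ k) (hjl : j ≠ l)
    (X Y : Omega r c) (h1 : RowRel i j X Y) (h2 : RowRel k l X Y) : X = Y :=
  Sq.rowRel_inter i j k l hik hil hjk hjl X Y h1 h2

theorem blockRel_equiv {m n : ℕ} {r : Fin m → ℕ} {c : Fin n → ℕ} (i j : Fin m) (a b : Fin n) :
    Equivalence (BlockRel (r := r) (c := c) i j a b) := Sq.blockRel_equiv i j a b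

theorem blockRel_comm {m n : ℕ} {r : Fin m → ℕ} {c : Fin n → ℕ} (i j : Fin m) (a b : Fin n)
    (X Y : Omega r c) : BlockRel i j a b X Y ↔ BlockRel i j b a X Y :=
  Sq.blockRel_comm i j a b X Y

theorem blockRel_square {m n : ℕ} {r : Fin m → ℕ} {c : Fin n → ℕ} (i j : Fin m) (_hij : i ≠ j)
    (a b a' b' : Fin n) (h1 : a ≠ a') (h2 : a ≠ b') (h3 : b ≠ a') (h4 : b ≠ b')
    (X Y Z : Omega r c) (hXY : BlockRel i j a b X Y) (hYZ : BlockRel i j a' b' Y Z) :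
    ∃ W : Omega r c, BlockRel i j a' b' X W ∧ BlockRel i j a b W Z :=
  Sq.blockRel_square i j a b a' b' h1 h2 h3 h4 X Y Z hXY hYZ

theorem blockRel_inter {m n : ℕ} {r : Fin m → ℕ} {c : Fin n → ℕ} (i j : Fin m)
    (a b a' b' : Fin n) (h1 : a ≠ a') (h2 : a ≠ b') (h3 : b ≠ a') (h4 : b ≠ b')
    (X Y : Omega r c) (hXY : BlockRel i j a b X Y) (hXY' : BlockRel i j a' b' X Y) : X = Y :=
  Sq.blockRel_inter i j a b a' b' h1 h2 h3 h4 X Y hXY hXY'

theorem triRel_equiv {m n : ℕ} {r : Fin m → ℕ} {c : Fin n → ℕ} (i j k : Fin m) :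
    Equivalence (TriRel (r := r) (c := c) i j k) := Sq.triRel_equiv i j k

theorem block3Rel_equiv {m n : ℕ} {r : Fin m → ℕ} {c : Fin n → ℕ} (i j : Fin m) (a b d : Fin n) :
    Equivalence (Block3Rel (r := r) (c := c) i j a b d) := Sq.block3Rel_equiv i j a b d

-- ROW ONEDIM (modules `Vale.Agent.H86.CT.Block3`, `Vale.Agent.H17.CT.Step1`)
theorem block3_ineq {m n : ℕ} {r : Fin m → ℕ} {c : Fin n → ℕ} (i j : Fin m) (hij : i ≠ j)
    (a b d : Fin n) (hab : a ≠ b) (hbd : b ≠ d) (had : a ≠ d) (f : Omega r c → ℝ) :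
    ∑ X, (f X - avgRel (Block3Rel i j a b d) f X) ^ 2
      ≤ ∑ X, (f X - avgRel (BlockRel i j a b) f X) ^ 2
        + ∑ X, (f X - avgRel (BlockRel i j b d) f X) ^ 2
        + ∑ X, (f X - avgRel (BlockRel i j d a) f X) ^ 2 :=
  Vale.Agent.H86.CT.block3_ineq i j hij a b d hab hbd had f

end Vale.Agent.H88.CT.Rows
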