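import Vale.Agent.H88.CT.Defs
import Vale.Agent.H88.CT.Mix
import Vale.Agent.H88.CT.Rows

/-!
The row-pair heat-bath chain on contingency tables: Poincare inequality and mixing bound
under the three-row hypothesis (triple trick).
-/

namespace Vale.Agent.H88.CT

open Finset Vale.Agent.H90

set_option linter.unusedSectionVars false

variable {m n : ℕ} {r : Fin m → ℕ} {c : Fin n → ℕ}

theorem card_offDiag_fin (m : ℕ) (hm : 1 ≤ m) :
    (((univ : Finset (Fin m × Fin m)).filter (fun p => p.1 ≠ p.2)).card : ℝ)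
      = (m : ℝ) * (m - 1) := by
  have h1 : (univ : Finset (Fin m × Fin m)).filter (fun p => p.1 ≠ p.2)
      = (univ : Finset (Fin m)).offDiag := by
    ext p
    simp [Finset.mem_offDiag]
  rw [h1, Finset.offDiag_card, Finset.card_univ, Fintype.card_fin]
  have h2 : m * m - m = m * (m - 1) := by
    rw [Nat.mul_sub, mul_one]
  rw [h2, Nat.cast_mul, Nat.cast_sub hm, Nat.cast_one]

theorem rowPairChain_eq (r : Fin m → ℕ) (c : Fin n → ℕ) :
    rowPairChain r c = mixK (fun p : Fin m × Fin m => RowRel (r := r) (c := c) p.1 p.2)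
      (fun p => p.1 ≠ p.2) (1 / ((m : ℝ) * (m - 1))) := by
  unfold rowPairChain mixK
  congr 1
  rw [Fintype.sum_prod_type]
  rfl

theorem rowPair_weight (hm : 2 ≤ m) :
    1 / ((m : ℝ) * (m - 1))
      * (((univ : Finset (Fin m × Fin m)).filter (fun p => p.1 ≠ p.2)).card : ℝ) = 1 := by
  rw [card_offDiag_fin m (by omega)]
  have h1 : (2 : ℝ) ≤ m := by exact_mod_cast hm
  have h2 : (m : ℝ) ≠ 0 := by linarith
  have h3 : (m : ℝ) - 1 ≠ 0 := by linarith
  field_simp

theorem rowRel_le_triRel (i j k : Fin m) (X Y : Omega r c) (h : RowRel i j X Y) :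
    TriRel i j k X Y := fun l hi hj _ => h l hi hj

theorem rowRel_le_triRel' (i j k : Fin m) (X Y : Omega r c) (h : RowRel j k X Y) :
    TriRel i j k X Y := fun l _ hj hk => h l hj hk

theorem rowRel_le_triRel'' (i j k : Fin m) (X Y : Omega r c) (h : RowRel k i X Y) :
    TriRel i j k X Y := fun l hi _ hk => h l hk hi

/-- The cyclic inequality for row triples, from the three-row hypothesis. -/
theorem row_cyclic (hyp : TripleHyp) (i j k : Fin m) (hij : i ≠ j) (hjk : j ≠ k) (hik : i ≠ k)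
    (f : Omega r c → ℝ) :
    0 ≤ dot (Qrel (RowRel i j) f) (Qrel (RowRel j k) f)
      + dot (Qrel (RowRel j k) f) (Qrel (RowRel k i) f)
      + dot (Qrel (RowRel k i) f) (Qrel (RowRel i j) f) := by
  refine cyclic_of_poincare (T := TriRel (r := r) (c := c) i j k)
    (Rows.rowRel_equiv i j) (Rows.rowRel_equiv j k) (Rows.rowRel_equiv k i)
    (Rows.triRel_equiv i j k) (rowRel_le_triRel i j k) (rowRel_le_triRel' i j k)
    (rowRel_le_triRel'' i j k) ?_ f
  intro g
  have h := hyp m n r c i j k hij hjk hik g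
  rw [sum_sq_eq_dot, sum_sq_eq_dot, sum_sq_eq_dot, sum_sq_eq_dot] at h
  exact h

/-- Spectral gap of the sum of the row-pair projections, from the three-row hypothesis. -/
theorem rowPair_gap (hyp : TripleHyp) (f : Omega r c → ℝ) (hf : ∑ X, f X = 0) :
    2 * dot f f ≤ dot f (Ksum (fun i j : Fin m => RowRel (r := r) (c := c) i j) f) := by
  refine Ksum_gap (rel := fun i j : Fin m => RowRel (r := r) (c := c) i j)
    (fun i j => Rows.rowRel_equiv i j) (fun i j X Y => Rows.rowRel_comm i j X Y)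
    (fun i j k l hik hil hjk hjl X Y Z h1 h2 => Rows.rowRel_square i j k l hik hil hjk hjl X Y Z h1 h2)
    (fun i j k l hik hil hjk hjl X Y h1 h2 => Rows.rowRel_inter i j k l hik hil hjk hjl X Y h1 h2)
    (fun i j k hij hjk hik g => row_cyclic hyp i j k hij hjk hik g) f ?_
  intro g hg
  have hinv : ∀ i j : Fin m, i ≠ j → ∀ X Y : Omega r c, RowRel i j X Y → g X = g Y :=
    fun i j hij => inv_of_Qrel_eq_zero (Rows.rowRel_equiv i j) g
      (Qrel_eq_zero_of_Ksum (rel := fun i j : Fin m => RowRel (r := r) (c := c) i j)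
        (fun i j => Rows.rowRel_equiv i j) g hg i j hij)
  have hconst := Rows.rowRel_inv_const g hinv
  unfold dot
  by_cases hne : Nonempty (Omega r c)
  · obtain ⟨X0⟩ := hne
    have : ∀ X, f X * g X = f X * g X0 := fun X => by rw [hconst X X0]
    simp only [this]
    rw [← Finset.sum_mul, hf, zero_mul]
  · have : IsEmpty (Omega r c) := not_nonempty_iff.1 hne
    simp

/-- Poincare inequality for the row-pair heat-bath chain under the three-row hypothesis. -/
theorem rowPair_poincare (hyp : TripleHyp) (hm : 2 ≤ m) (f : Omega r c → ℝ)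
    (hf : ∑ X, f X = 0) :
    2 / ((m : ℝ) * (m - 1)) * ∑ X, f X ^ 2
      ≤ (1 / 2 : ℝ) * ∑ X, ∑ Y, rowPairChain r c X Y * (f X - f Y) ^ 2 := by
  rw [rowPairChain_eq, mixK_dirichlet (fun p : Fin m × Fin m => RowRel (r := r) (c := c) p.1 p.2)
    (fun p => p.1 ≠ p.2) (fun p => Rows.rowRel_equiv p.1 p.2) _ (rowPair_weight hm) f]
  have hgap := rowPair_gap hyp f hf
  rw [dot_Ksum_self (rel := fun i j : Fin m => RowRel (r := r) (c := c) i j)
    (fun i j => Rows.rowRel_equiv i j) f] at hgap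
  rw [Fintype.sum_prod_type]
  have e : ∑ X, f X ^ 2 = dot f f := by
    unfold dot; exact Finset.sum_congr rfl (fun X _ => by ring)
  rw [e]
  have h1 : (2 : ℝ) ≤ m := by exact_mod_cast hm
  have hpos : (0 : ℝ) < (m : ℝ) * (m - 1) := by nlinarith
  have hw : (0 : ℝ) ≤ 1 / ((m : ℝ) * (m - 1)) := by positivity
  calc 2 / ((m : ℝ) * (m - 1)) * dot f f = 1 / ((m : ℝ) * (m - 1)) * (2 * dot f f) := by ring
    _ ≤ 1 / ((m : ℝ) * (m - 1)) * _ := mul_le_mul_of_nonneg_left hgap hw

/-- Mixing of the lazy row-pair heat-bath chain under the three-row hypothesis. -/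
theorem rowPair_mixing (hyp : TripleHyp) (hm : 2 ≤ m) (r : Fin m → ℕ) (c : Fin n → ℕ)
    (t : ℕ) (X : Omega r c) :
    (∑ Y, |(((1 / 2 : ℝ) • (1 + rowPairChain r c)) ^ t) X Y
        - 1 / (Fintype.card (Omega r c) : ℝ)|) ^ 2
      ≤ (Fintype.card (Omega r c) : ℝ) * (1 - 1 / ((m : ℝ) * (m - 1))) ^ t := by
  have h1 : (2 : ℝ) ≤ m := by exact_mod_cast hm
  have hpos : (0 : ℝ) < (m : ℝ) * (m - 1) := by nlinarith
  have hK : rowPairChain r c = mixK (fun p : Fin m × Fin m => RowRel (r := r) (c := c) p.1 p.2)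
      (fun p => p.1 ≠ p.2) (1 / ((m : ℝ) * (m - 1))) := rowPairChain_eq r c
  have hsymm : ∀ X Y, rowPairChain r c X Y = rowPairChain r c Y X := by
    intro X Y; rw [hK]
    exact mixK_symm (fun p : Fin m × Fin m => RowRel (r := r) (c := c) p.1 p.2)
      (fun p => p.1 ≠ p.2) (fun p => Rows.rowRel_equiv p.1 p.2) _ X Y
  have hnn : ∀ X Y, 0 ≤ rowPairChain r c X Y := by
    intro X Y; rw [hK]
    exact mixK_nonneg (fun p : Fin m × Fin m => RowRel (r := r) (c := c) p.1 p.2)
      (fun p => p.1 ≠ p.2) _ (by positivity) X Y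
  have hrow : ∀ X, ∑ Y, rowPairChain r c X Y = 1 := by
    intro X; rw [hK]
    exact mixK_row (fun p : Fin m × Fin m => RowRel (r := r) (c := c) p.1 p.2)
      (fun p => p.1 ≠ p.2) (fun p => Rows.rowRel_equiv p.1 p.2) _ (rowPair_weight hm) X
  have hγ : 2 / ((m : ℝ) * (m - 1)) ≤ 2 := by
    rw [div_le_iff₀ hpos]; nlinarith
  have key := Vale.Agent.H12.MixCore.l1_bound (rowPairChain r c) hsymm hnn hrow
    (2 / ((m : ℝ) * (m - 1))) hγ (fun f hf => rowPair_poincare hyp hm f hf) t X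
  have e : 1 - 2 / ((m : ℝ) * (m - 1)) / 2 = 1 - 1 / ((m : ℝ) * (m - 1)) := by
    field_simp
  rw [e] at key
  exact key

end Vale.Agent.H88.CT
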