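import Vale.Agent.H88.CT.Abstract
import Vale.Agent.H88.CT.Defs

/-!
Contingency tables: the fibre relations are equivalences, and the commutation squares for
disjoint row pairs and for disjoint column pairs inside a row pair.
-/

namespace Vale.Agent.H88.CT.Sq

open Finset Vale.Agent.H90 Vale.Agent.H88.CT

variable {m n : ℕ} {r : Fin m → ℕ} {c : Fin n → ℕ}

theorem rowRel_equiv (i j : Fin m) : Equivalence (RowRel (r := r) (c := c) i j) :=
  ⟨fun _ _ _ _ => rfl, fun h k hk1 hk2 => (h k hk1 hk2).symm,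
    fun h1 h2 k hk1 hk2 => (h1 k hk1 hk2).trans (h2 k hk1 hk2)⟩

theorem triRel_equiv (i j k : Fin m) : Equivalence (TriRel (r := r) (c := c) i j k) :=
  ⟨fun _ _ _ _ _ => rfl, fun h l h1 h2 h3 => (h l h1 h2 h3).symm,
    fun h h' l h1 h2 h3 => (h l h1 h2 h3).trans (h' l h1 h2 h3)⟩

theorem blockRel_equiv (i j : Fin m) (a b : Fin n) :
    Equivalence (BlockRel (r := r) (c := c) i j a b) :=
  ⟨fun _ _ _ _ => rfl, fun h k l hkl => (h k l hkl).symm,
    fun h1 h2 k l hkl => (h1 k l hkl).trans (h2 k l hkl)⟩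

theorem block3Rel_equiv (i j : Fin m) (a b d : Fin n) :
    Equivalence (Block3Rel (r := r) (c := c) i j a b d) :=
  ⟨fun _ _ _ _ => rfl, fun h k l hkl => (h k l hkl).symm,
    fun h1 h2 k l hkl => (h1 k l hkl).trans (h2 k l hkl)⟩

theorem rowRel_comm (i j : Fin m) (X Y : Omega r c) : RowRel i j X Y ↔ RowRel j i X Y :=
  ⟨fun h k hk1 hk2 => h k hk2 hk1, fun h k hk1 hk2 => h k hk2 hk1⟩

theorem blockRel_comm (i j : Fin m) (a b : Fin n) (X Y : Omega r c) :
    BlockRel i j a b X Y ↔ BlockRel i j b a X Y := by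
  constructor
  · intro h k l hkl
    apply h k l
    rintro ⟨h1, h2⟩
    exact hkl ⟨h1, h2.symm⟩
  · intro h k l hkl
    apply h k l
    rintro ⟨h1, h2⟩
    exact hkl ⟨h1, h2.symm⟩

theorem rowRel_inter (i j k l : Fin m)
    (hik : i ≠ k) (hil : i ≠ l) (hjk : j ≠ k) (hjl : j ≠ l)
    (X Y : Omega r c) (h1 : RowRel i j X Y) (h2 : RowRel k l X Y) : X = Y := by
  apply Subtype.ext
  funext q
  by_cases hq : q = i ∨ q = j
  · apply h2 q
    · rcases hq with rfl | rfl
      · exact hik
      · exact hjk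
    · rcases hq with rfl | rfl
      · exact hil
      · exact hjl
  · rw [not_or] at hq
    exact h1 q hq.1 hq.2

theorem blockRel_inter (i j : Fin m)
    (a b a' b' : Fin n) (h1 : a ≠ a') (h2 : a ≠ b') (h3 : b ≠ a') (h4 : b ≠ b')
    (X Y : Omega r c) (hXY : BlockRel i j a b X Y) (hXY' : BlockRel i j a' b' X Y) : X = Y := by
  apply Subtype.ext
  funext q l
  by_cases hl : l = a ∨ l = b
  · apply hXY' q l
    rintro ⟨-, h⟩
    rcases hl with rfl | rfl <;> rcases h with h | h
    · exact h1 h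
    · exact h2 h
    · exact h3 h
    · exact h4 h
  · apply hXY q l
    rintro ⟨-, h⟩
    exact hl h

/-- Mixing two tables along a predicate: if `X = Y` where `P` holds and `Y = Z` where it fails,
then the table equal to `Z` where `P` holds and to `X` elsewhere has the same margins. -/
theorem mix_margins (X Y Z : Omega r c) (P : Fin m → Fin n → Prop) [∀ q l, Decidable (P q l)]
    (h1 : ∀ q l, P q l → X.1 q l = Y.1 q l) (h2 : ∀ q l, ¬ P q l → Y.1 q l = Z.1 q l) :
    (∀ q, ∑ l, (if P q l then Z.1 q l else X.1 q l) = r q)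
      ∧ (∀ l, ∑ q, (if P q l then Z.1 q l else X.1 q l) = c l) := by
  have key : ∀ q l, (if P q l then Z.1 q l else X.1 q l) + Y.1 q l = X.1 q l + Z.1 q l := by
    intro q l
    by_cases hP : P q l
    · rw [if_pos hP, ← h1 q l hP]; ring
    · rw [if_neg hP, h2 q l hP]
  constructor
  · intro q
    have h : ∑ l, (if P q l then Z.1 q l else X.1 q l) + ∑ l, Y.1 q l
        = ∑ l, X.1 q l + ∑ l, Z.1 q l := by
      rw [← Finset.sum_add_distrib, ← Finset.sum_add_distrib]
      exact Finset.sum_congr rfl (fun l _ => key q l)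
    rw [X.2.1 q, Y.2.1 q, Z.2.1 q] at h
    omega
  · intro l
    have h : ∑ q, (if P q l then Z.1 q l else X.1 q l) + ∑ q, Y.1 q l
        = ∑ q, X.1 q l + ∑ q, Z.1 q l := by
      rw [← Finset.sum_add_distrib, ← Finset.sum_add_distrib]
      exact Finset.sum_congr rfl (fun q _ => key q l)
    rw [X.2.2 l, Y.2.2 l, Z.2.2 l] at h
    omega

theorem rowRel_square (i j k l : Fin m)
    (hik : i ≠ k) (hil : i ≠ l) (hjk : j ≠ k) (hjl : j ≠ l)
    (X Y Z : Omega r c) (h1 : RowRel i j X Y) (h2 : RowRel k l Y Z) :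
    ∃ W : Omega r c, RowRel k l X W ∧ RowRel i j W Z := by
  have hm := mix_margins X Y Z (fun q _ => q = k ∨ q = l)
    (fun q l' hP => by
      have : X.1 q = Y.1 q := by
        apply h1 q
        · rcases hP with rfl | rfl
          · exact hik.symm
          · exact hil.symm
        · rcases hP with rfl | rfl
          · exact hjk.symm
          · exact hjl.symm
      rw [this])
    (fun q l' hP => by
      rw [not_or] at hP
      rw [h2 q hP.1 hP.2])
  refine ⟨⟨fun q l' => if q = k ∨ q = l then Z.1 q l' else X.1 q l', hm⟩, ?_, ?_⟩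
  · intro q hq1 hq2
    funext l'
    show X.1 q l' = if q = k ∨ q = l then Z.1 q l' else X.1 q l'
    rw [if_neg (not_or.2 ⟨hq1, hq2⟩)]
  · intro q hq1 hq2
    funext l'
    show (if q = k ∨ q = l then Z.1 q l' else X.1 q l') = Z.1 q l'
    by_cases hP : q = k ∨ q = l
    · rw [if_pos hP]
    · rw [if_neg hP]
      rw [not_or] at hP
      rw [h1 q hq1 hq2, h2 q hP.1 hP.2]

theorem blockRel_square (i j : Fin m)
    (a b a' b' : Fin n) (h1 : a ≠ a') (h2 : a ≠ b') (h3 : b ≠ a') (h4 : b ≠ b')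
    (X Y Z : Omega r c) (hXY : BlockRel i j a b X Y) (hYZ : BlockRel i j a' b' Y Z) :
    ∃ W : Omega r c, BlockRel i j a' b' X W ∧ BlockRel i j a b W Z := by
  have hm := mix_margins X Y Z (fun q l => (q = i ∨ q = j) ∧ (l = a' ∨ l = b'))
    (fun q l hP => by
      apply hXY q l
      rintro ⟨-, h⟩
      rcases hP.2 with rfl | rfl <;> rcases h with h | h
      · exact h1 h.symm
      · exact h3 h.symm
      · exact h2 h.symm
      · exact h4 h.symm)
    (fun q l hP => hYZ q l hP)
  refine ⟨⟨fun q l => if (q = i ∨ q = j) ∧ (l = a' ∨ l = b') then Z.1 q l else X.1 q l, hm⟩,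
    ?_, ?_⟩
  · intro q l hql
    show X.1 q l = if (q = i ∨ q = j) ∧ (l = a' ∨ l = b') then Z.1 q l else X.1 q l
    rw [if_neg hql]
  · intro q l hql
    show (if (q = i ∨ q = j) ∧ (l = a' ∨ l = b') then Z.1 q l else X.1 q l) = Z.1 q l
    by_cases hP : (q = i ∨ q = j) ∧ (l = a' ∨ l = b')
    · rw [if_pos hP]
    · rw [if_neg hP, hXY q l hql, hYZ q l hP]

end Vale.Agent.H88.CT.Sq
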